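import Vale.Agent.Lib.P154.ST.Poly

/-!
Homogeneous polynomials in the roots of the message for the potential with mixed exponents.
-/

namespace Vale.Agent.Lib.P154

namespace SF

open ST

/-- The sum over permutations of the monomial with exponents `(4, 4, 1)`. -/
noncomputable def m1y (y0 y1 y2 : ℝ) : ℝ :=
  y0 ^ 4 * y1 ^ 4 * y2 ^ 1 + y0 ^ 4 * y2 ^ 4 * y1 ^ 1 + y1 ^ 4 * y0 ^ 4 * y2 ^ 1
    + y1 ^ 4 * y2 ^ 4 * y0 ^ 1 + y2 ^ 4 * y0 ^ 4 * y1 ^ 1 + y2 ^ 4 * y1 ^ 4 * y0 ^ 1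

/-- The sum over permutations of the monomial with exponents `(5, 2, 2)`. -/
noncomputable def m2y (y0 y1 y2 : ℝ) : ℝ :=
  y0 ^ 5 * y1 ^ 2 * y2 ^ 2 + y0 ^ 5 * y2 ^ 2 * y1 ^ 2 + y1 ^ 5 * y0 ^ 2 * y2 ^ 2
    + y1 ^ 5 * y2 ^ 2 * y0 ^ 2 + y2 ^ 5 * y0 ^ 2 * y1 ^ 2 + y2 ^ 5 * y1 ^ 2 * y0 ^ 2

/-- The numerator of the weighted sum of the first two test functions. -/
noncomputable def Hny (y0 y1 y2 : ℝ) : ℝ :=
  (153 / 2) * (Sy y0 y1 y2 - (1 / 2) * m1y y0 y1 y2) + (9 / 1) * (Sy y0 y1 y2 - (1 / 2) * m2y y0 y1 y2)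

/-- The numerator of the third test function. -/
noncomputable def Hpn (y0 y1 y2 : ℝ) : ℝ := Sy y0 y1 y2 - 3 * e3y y0 y1 y2

/-- The numerator of the potential. -/
noncomputable def Lpn (y0 y1 y2 : ℝ) : ℝ := Hny y0 y1 y2 - 70 * Hpn y0 y1 y2

/-- The numerator of the auxiliary function. -/
noncomputable def Wnn (y0 y1 y2 : ℝ) : ℝ := 70 * Hpn y0 y1 y2 - (455 / 512) * Hny y0 y1 y2

end SF

end Vale.Agent.Lib.P154
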