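import Vale.Agent.Lib.P154.SF.RealDefs
import Vale.Agent.Lib.P154.SF.Poly
import Vale.Agent.Lib.P154.ST.Lyap

/-! Identities for the real values of the programs. -/

namespace Vale.Agent.Lib.P154

namespace SF

open ST

set_option linter.unusedSimpArgs false in
set_option maxHeartbeats 4000000 in
theorem cS_eq (r b l u : ℝ) : cS r b l u = Sy (1 + r * b) (1 + r * (1 - b)) (1 - r) := by
  simp only [cS , cts , cst , cg4 , cg3 , cg2 , cg , ch3 , ch2 , ch, Sy, m1y, m2y, e3y, Lpn, Wnn, Nxy, Hny, Hpn, rv, zv]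
  push_cast
  ring

set_option linter.unusedSimpArgs false in
set_option maxHeartbeats 4000000 in
theorem cP0_eq (r b l u : ℝ) : r * cP0 r b l u = 3 * (1 + r * b) ^ 9 - Sy (1 + r * b) (1 + r * (1 - b)) (1 - r) := by
  simp only [cP0 , cts , cst , cg4 , cg3 , cg2 , cg , ch3 , ch2 , ch , cD0 , cy0, Sy, m1y, m2y, e3y, Lpn, Wnn, Nxy, Hny, Hpn, rv, zv]
  push_cast
  ring

set_option linter.unusedSimpArgs false in
set_option maxHeartbeats 4000000 in
theorem cP1_eq (r b l u : ℝ) : r * cP1 r b l u = 3 * (1 + r * (1 - b)) ^ 9 - Sy (1 + r * b) (1 + r * (1 - b)) (1 - r) := by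
  simp only [cP1 , cts , cst , cg4 , cg3 , cg2 , cg , ch3 , ch2 , ch , cD1 , cy1, Sy, m1y, m2y, e3y, Lpn, Wnn, Nxy, Hny, Hpn, rv, zv]
  push_cast
  ring

set_option linter.unusedSimpArgs false in
set_option maxHeartbeats 4000000 in
theorem cPt_eq (r b l u : ℝ) : r * cPt r b l u = Sy (1 + r * b) (1 + r * (1 - b)) (1 - r) - 3 * (1 - r) ^ 9 := by
  simp only [cPt , cts , cst , cg4 , cg3 , cg2 , cg , ch3 , ch2 , ch , cD2 , cy2, Sy, m1y, m2y, e3y, Lpn, Wnn, Nxy, Hny, Hpn, rv, zv]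
  push_cast
  ring

set_option linter.unusedSimpArgs false in
set_option maxHeartbeats 4000000 in
theorem cMt_eq (r b l u : ℝ) : r ^ 4 * (65536 * cMt r b l u) = Sy (1 + r * b) (1 + r * (1 - b)) (1 - r) * Lpn (1 + r * b) (1 + r * (1 - b)) (1 - r) - Nxy (1 + r * b) (1 + r * (1 - b)) (1 - r) := by
  simp only [cMt , ch4 , ch3 , cg9 , cg8 , cg7 , ch2 , cg6 , cg5 , cg4 , cg3 , cg2 , cg , ch, Sy, m1y, m2y, e3y, Lpn, Wnn, Nxy, Hny, Hpn, rv, zv]
  push_cast
  ring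

set_option linter.unusedSimpArgs false in
set_option maxHeartbeats 4000000 in
theorem cWt_eq (r b l u : ℝ) : r ^ 2 * cWt r b l u = Wnn (1 + r * b) (1 + r * (1 - b)) (1 - r) := by
  simp only [cWt , cg4 , ch2 , cg3 , cg2 , cg , ch, Sy, m1y, m2y, e3y, Lpn, Wnn, Nxy, Hny, Hpn, rv, zv]
  push_cast
  ring

set_option linter.unusedSimpArgs false in
set_option maxHeartbeats 4000000 in
theorem cHq_eq (r b l u : ℝ) : r ^ 2 * (256 * cHq r b l u) = Hny (1 + r * b) (1 + r * (1 - b)) (1 - r) := by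
  simp only [cHq , cg4 , ch2 , cg3 , cg2 , cg , ch, Sy, m1y, m2y, e3y, Lpn, Wnn, Nxy, Hny, Hpn, rv, zv]
  push_cast
  ring

set_option linter.unusedSimpArgs false in
set_option maxHeartbeats 4000000 in
theorem cHp_eq (r b l u : ℝ) : r ^ 2 * cHp r b l u = Hpn (1 + r * b) (1 + r * (1 - b)) (1 - r) := by
  simp only [cHp , cg4 , ch2 , cg3 , cg2 , cg , ch, Sy, m1y, m2y, e3y, Lpn, Wnn, Nxy, Hny, Hpn, rv, zv]
  push_cast
  ring

theorem cNn_eq (r b l u : ℝ) : cNn r b l u = (cP0 r b l u ^ 2 + cP1 r b l u ^ 2 + cPt r b l u ^ 2) / 256 := by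
  simp only [cNn, cn0, cn1, cn2, rv, zv]
  push_cast
  ring

end SF

end Vale.Agent.Lib.P154
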