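import Vale.Agent.Lib.P154.SF.Chart
import Vale.Agent.Lib.P154.SP.Final

/-!
Nonreconstruction on the Galton-Watson tree with Poisson offspring, nonnegative eigenvalues.
-/

namespace Vale.Agent.Lib.P154

namespace SF

open ST PS Filter Topology

lemma nPu_eq (v ρ : ℝ) : nPu v ρ 0 0 = PuF v := by
  simp only [nPu, PuF, rv, zv]
  norm_num

lemma nPl_eq (v ρ : ℝ) : nPl v ρ 0 0 = PlF (ρ * v) := by
  simp only [nPl, nyy, PlF, rv, zv]
  norm_num

theorem coneKP {v ρ : ℝ} (h0 : 0 ≤ v) (h1 : v ≤ 159 / 128) (h2 : 449 / 512 ≤ ρ) (h3 : ρ ≤ 233 / 256) :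
    0 ≤ (847331 / 4194304) * ((70 - (77805 / 1024) * ρ) * (70 - (77805 / 1024) * ρ))
      - (1 + (115 / 256) * (v * (70 - (77805 / 1024) * ρ)))
        * (70 * PuF v - (171 / 2) * ((ρ * ρ) * PlF (ρ * v))) := by
  have hb : InBox rootKCP v ρ 0 0 := by
    unfold rootKCP
    refine ⟨?_, ?_, ?_, ?_⟩ <;> rw [abs_le] <;> unfold rv zv <;> norm_num <;> constructor <;> linarith
  have g := goodKCP v ρ 0 0 hb (by
    intro j
    rw [nthEx_nil]
    unfold Ex.evR rv zv
    norm_num)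
  rw [evR_KCP] at g
  unfold RKCP nw nr2 at g
  rw [nPu_eq, nPl_eq] at g
  have e3 : rv 281495372824576 = 77805 / 1024 := by unfold rv zv; norm_num
  have e4 : rv 281493767192576 = 70 := by unfold rv zv; norm_num
  have e5 : rv 281497927942144 = 171 / 2 := by unfold rv zv; norm_num
  rw [rv_CH, rv_B1P, e3, e4, e5, rv_one] at g
  exact g

/-- Comparison of the second order remainder of the exponentials with the rational majorant. -/
lemma cone_P {d x y : ℝ} (hd : 0 ≤ d) (h1 : (76779 / 1024) * x ≤ y) (h2 : y ≤ (39843 / 512) * x) (h3 : 0 ≤ x)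
    (h4 : d * x ≤ 159 / 128) :
    70 * (Real.exp (-(d * x)) - 1 + d * x)
        - (171 / 2) * (Real.exp (-(d * (y / (171 / 2)))) - 1 + d * (y / (171 / 2)))
      ≤ SN.Fq ((847331 / 4194304) * d ^ 2) ((115 / 256) * d) (70 * x - (455 / 512) * y) := by
  rcases h3.eq_or_lt with e | hx
  · subst e
    have hy : y = 0 := by linarith
    subst hy
    simp [SN.Fq]
  · set ρ := (y * (2 / 171)) / x with hρ
    have hy : y * (2 / 171) = ρ * x := by
      rw [hρ]; field_simp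
    have hρ1 : 449 / 512 ≤ ρ := by
      rw [hρ, le_div_iff₀ hx]; linarith
    have hρ2 : ρ ≤ 233 / 256 := by
      rw [hρ, div_le_iff₀ hx]; linarith
    have eW : 70 * x - (455 / 512) * y = x * (70 - (77805 / 1024) * ρ) := by
      have : y = (171 / 2) * (ρ * x) := by rw [← hy]; ring
      rw [this]; ring
    have hw0 : 0 ≤ 70 - (77805 / 1024) * ρ := by linarith
    set w := 70 - (77805 / 1024) * ρ with hw
    set v := d * x with hv
    have hv0 : 0 ≤ v := mul_nonneg hd hx.le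
    have ez : d * (y / (171 / 2)) = ρ * v := by
      have : y / (171 / 2) = ρ * x := by rw [← hy]; ring
      rw [this, hv]; ring
    rw [eW, ez]
    have hρ0 : 0 ≤ ρ := by linarith
    have hF : SN.Fq ((847331 / 4194304) * d ^ 2) ((115 / 256) * d) (x * w) = SN.Fq (847331 / 4194304) (115 / 256) (v * w) := by
      unfold SN.Fq
      rw [hv]
      have e1 : 847331 / 4194304 * d ^ 2 * (x * w) ^ 2 = 847331 / 4194304 * (d * x * w) ^ 2 := by ring
      have e2 : 115 / 256 * d * (x * w) = 115 / 256 * (d * x * w) := by ring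
      rw [e1, e2]
    rw [hF]
    have hvw : 0 ≤ v * w := mul_nonneg hv0 hw0
    have hp : 0 < 1 + (115 / 256) * (v * w) := by positivity
    unfold SN.Fq
    rw [le_div_iff₀ hp]
    have g := coneKP hv0 h4 hρ1 hρ2
    rw [← hw] at g
    have u1 := R1_upper hv0
    have u2 := R1_lower (mul_nonneg hρ0 hv0)
    have a1 : 70 * (Real.exp (-v) - 1 + v) - (171 / 2) * (Real.exp (-(ρ * v)) - 1 + ρ * v)
        ≤ v ^ 2 * (70 * PuF v - (171 / 2) * ((ρ * ρ) * PlF (ρ * v))) := by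
      have e : v ^ 2 * (70 * PuF v - (171 / 2) * ((ρ * ρ) * PlF (ρ * v)))
          = 70 * (v ^ 2 * PuF v) - (171 / 2) * ((ρ * v) ^ 2 * PlF (ρ * v)) := by ring
      rw [e]
      linarith
    have a2 := mul_le_mul_of_nonneg_right a1 hp.le
    have a3 := mul_nonneg (sq_nonneg v) g
    have e : v ^ 2 * ((847331 / 4194304) * (w * w) - (1 + 115 / 256 * (v * w)) * (70 * PuF v - 171 / 2 * (ρ * ρ * PlF (ρ * v))))
        = (847331 / 4194304) * (v * w) ^ 2 - v ^ 2 * (70 * PuF v - 171 / 2 * (ρ * ρ * PlF (ρ * v))) * (1 + 115 / 256 * (v * w)) := by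
      ring
    rw [e] at a3
    linarith

section main

variable {d lam : ℝ}

lemma coord_pos (h0 : 0 < lam) {u0 u1 u2 : ℝ} (hT : InT u0 u1 u2) :
    (lam * u0 ≤ 2 * lam ∧ lam * u1 ≤ 2 * lam ∧ lam * u2 ≤ 2 * lam) ∧
      (-(lam * u0) ≤ lam ∧ -(lam * u1) ≤ lam ∧ -(lam * u2) ≤ lam) := by
  obtain ⟨hs, a0, a1, a2⟩ := hT
  refine ⟨⟨?_, ?_, ?_⟩, ?_, ?_, ?_⟩ <;> nlinarith

/-- The hull estimates at the scaled point. -/
lemma hull_pos (h0 : 0 < lam) (h1 : lam ≤ 229 / 512) :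
    ∀ u0 u1 u2, InT u0 u1 u2 →
      (76779 / 1024) * (1 - Gp (lam * u0) (lam * u1) (lam * u2)) ≤ Hf (lam * u0) (lam * u1) (lam * u2) ∧
      Hf (lam * u0) (lam * u1) (lam * u2) ≤ (39843 / 512) * (1 - Gp (lam * u0) (lam * u1) (lam * u2)) ∧
      1 - Gp (lam * u0) (lam * u1) (lam * u2) ≤ 171 / 1024 := by
  intro u0 u1 u2 hT
  have hTw := InT_scale (by linarith : -(1 / 2) ≤ lam) (by linarith : lam ≤ 1) hT
  obtain ⟨⟨c0, c1, c2⟩, d0, d1, d2⟩ := coord_pos h0 hT
  apply hull_all _ _ _ hTw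
  · exact ⟨by linarith, by linarith, by linarith⟩
  · exact ⟨by linarith, by linarith, by linarith⟩

lemma x_pos (h0 : 0 < lam) (h1 : lam ≤ 229 / 512) {u0 u1 u2 : ℝ} (hT : InT u0 u1 u2) :
    1 - Gp (lam * u0) (lam * u1) (lam * u2) ≤ (159 / 128) * lam ^ 2 := by
  have hTw := InT_scale (by linarith : -(1 / 2) ≤ lam) (by linarith : lam ≤ 1) hT
  obtain ⟨⟨c0, c1, c2⟩, d0, d1, d2⟩ := coord_pos h0 hT
  have h2 := x_all _ _ _ hTw ⟨by linarith, by linarith, by linarith⟩ ⟨by linarith, by linarith, by linarith⟩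
  have e : sq3 (lam * u0) (lam * u1) (lam * u2) = lam ^ 2 * sq3 u0 u1 u2 := by
    unfold sq3; ring
  rw [e] at h2
  have h3 := sq3_le_six hT
  have h4 : lam ^ 2 * sq3 u0 u1 u2 ≤ lam ^ 2 * 6 := mul_le_mul_of_nonneg_left h3 (sq_nonneg lam)
  nlinarith

/-- The potential and the auxiliary function are nonnegative at the scaled point. -/
lemma W_pos (h0 : 0 < lam) (h1 : lam ≤ 229 / 512) {u0 u1 u2 : ℝ} (hT : InT u0 u1 u2) :
    0 ≤ psiN (lam * u0) (lam * u1) (lam * u2) ∧ 0 ≤ WN (lam * u0) (lam * u1) (lam * u2) := by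
  obtain ⟨a1, a2, a3⟩ := hull_pos h0 h1 u0 u1 u2 hT
  have hTw := InT_scale (by linarith : -(1 / 2) ≤ lam) (by linarith : lam ≤ 1) hT
  have a4 := Gp_le_one hTw
  unfold psiN WN
  constructor <;> nlinarith

/-- The upper bounds at the scaled point of a sorted point. -/
lemma up_pos (h0 : 0 < lam) (h1 : lam ≤ 229 / 512) {u0 u1 u2 : ℝ} (hT : InT u0 u1 u2) (h01 : u1 ≤ u0)
    (h12 : u2 ≤ u1) (hneg : u2 < 0) :
    psiN (lam * u0) (lam * u1) (lam * u2) - lam ^ 2 * sq3 u0 u1 u2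
        ≤ (lam ^ 2 * sq3 u0 u1 u2) ^ 2
          * AbF (u0 / (-u2) - rv 281475312254976) (lam * (-u2) - rv 281475036741632) ∧
      WN (lam * u0) (lam * u1) (lam * u2)
        ≤ lam ^ 2 * sq3 u0 u1 u2 * BbF (u0 / (-u2) - rv 281475312254976) (lam * (-u2) - rv 281475036741632) := by
  have hTw := InT_scale (by linarith : -(1 / 2) ≤ lam) (by linarith : lam ≤ 1) hT
  obtain ⟨⟨c0, c1, c2⟩, d0, d1, d2⟩ := coord_pos h0 hT
  obtain ⟨g1, g2⟩ := up_sorted hTw (mul_le_mul_of_nonneg_left h01 h0.le) (mul_le_mul_of_nonneg_left h12 h0.le)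
    (mul_neg_of_pos_of_neg h0 hneg) (by linarith) (by linarith)
  have ea : lam * u0 / (-(lam * u2)) = u0 / (-u2) := by
    have hne : lam ≠ 0 := h0.ne'
    have hne0 : u2 ≠ 0 := hneg.ne
    field_simp
  have eX : sq3 (lam * u0) (lam * u1) (lam * u2) = lam ^ 2 * sq3 u0 u1 u2 := by
    unfold sq3; ring
  have et : -(lam * u2) = lam * (-u2) := by ring
  rw [ea, eX, et] at g1
  rw [ea, eX, et] at g2
  exact ⟨g1, g2⟩

/-- The pointwise inequality. -/
theorem pw_P (hd : 0 ≤ d) (h0 : 0 < lam) (h1 : lam ≤ 229 / 512) (hdl : d * lam ^ 2 ≤ 1) :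
    ∀ u0 u1 u2, InT u0 u1 u2 →
      d * psiN (lam * u0) (lam * u1) (lam * u2)
        + SN.Fq ((847331 / 4194304) * d ^ 2) ((115 / 256) * d) (WN (lam * u0) (lam * u1) (lam * u2))
        + (1 / 8192) * (sq3 u0 u1 u2) ^ 2 ≤ psiN u0 u1 u2 := by
  apply sym_reduce
  · intro a b c h
    rw [psiN_swap01 a b c, psiN_swap01 (lam * a) (lam * b) (lam * c), WN_swap01 (lam * a) (lam * b) (lam * c),
      sq3_swap01 a b c]
    exact h
  · intro a b c h
    rw [psiN_swap12 a b c, psiN_swap12 (lam * a) (lam * b) (lam * c), WN_swap12 (lam * a) (lam * b) (lam * c),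
      sq3_swap12 a b c]
    exact h
  · intro a b c hT h2 h3
    by_cases hneg : c < 0
    · obtain ⟨g1, g2⟩ := up_pos h0 h1 hT h2 h3 hneg
      have ht := top_sorted6 (l := lam) hT h2 h3 hneg h0.le h1
      unfold rhsG at ht
      rw [rv_CH, rv_E, rv_one, rv_B1P] at ht
      obtain ⟨hP, hW⟩ := W_pos h0 h1 hT
      exact pw_core_Pg (C := 847331 / 4194304) (l := lam) (d := d) (X := sq3 a b c) (E := 1 / 8192) (b := 115 / 256)
        (A := AbF (a / (-c) - rv 281475312254976) (lam * (-c) - rv 281475036741632))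
        (B := BbF (a / (-c) - rv 281475312254976) (lam * (-c) - rv 281475036741632))
        (by norm_num) h0 hd hdl (by norm_num) hP hW g1 g2 ht
    · obtain ⟨e0, e1, e2⟩ := zero_of_sorted hT h2 h3 hneg
      subst e0 e1 e2
      simp only [mul_zero]
      unfold psiN WN sq3 SN.Fq
      rw [values_zero.1, values_zero.2]
      norm_num

/-- Nonreconstruction on the Galton-Watson tree with Poisson offspring, for positive eigenvalues
at most `229 / 512`, up to the Kesten-Stigum bound. -/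
theorem nonrec_P (hd : 0 ≤ d) (h0 : 0 < lam) (h1 : lam ≤ 229 / 512) (hdl : d * lam ^ 2 ≤ 1) :
    Tendsto (fun n => gwGap 3 d lam n) atTop (𝓝 0) := by
  have hl1 : -(1 / 2) ≤ lam := by linarith
  have hl2 : lam ≤ 1 := by linarith
  have b1 : BddT G1 := BddT.avg6 (BddT.gk 4 4 1)
  have b2 : BddT G2 := BddT.avg6 (BddT.gk 5 2 2)
  have bp : BddT Gp := BddT.gk 3 3 3
  have bψ : BddT psiN := by
    have e : psiN = fun a b c' => (-(153 / 2)) * G1 a b c' + (-9) * G2 a b c' + 70 * Gp a b c' + ((153 / 2) + 9 - 70) := by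
      funext a b c'
      unfold psiN Hf
      ring
    rw [e]
    exact BddT.lin4 b1 b2 bp _ _ _ _
  apply gap_of_stepB hd hl1 hl2 (ε := 1 / 8192) (by norm_num) bψ
  refine stepP (G1 := G1) (G2 := G2) (Gp' := Gp) (ψ := psiN) (W := WN) (T1 := 153 / 2) (T2 := 9) (Tp := 70)
    (κ := 455 / 512) (c := (847331 / 4194304) * d ^ 2) (β := (115 / 256) * d) (ε := 1 / 8192)
    (ρ1 := 76779 / 1024) (ρ2 := 39843 / 512) (xm := (159 / 128) * lam ^ 2)
    hd hl1 hl2 (by norm_num) (by norm_num) (by norm_num) (by norm_num) (fun _ _ _ => rfl) (fun _ _ _ => rfl)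
    b1 b2 bp
    (fun n => SP.Gk_tens hd hl1 hl2 (k0 := 4) (k1 := 4) (k2 := 1) (by norm_num) n)
    (fun n => SP.Gk_tens hd hl1 hl2 (k0 := 5) (k1 := 2) (k2 := 2) (by norm_num) n)
    (fun n => Eg_Gk_succ hd hl1 hl2 (k0 := 3) (k1 := 3) (k2 := 3) (by norm_num) n)
    (by positivity) (by positivity) (by norm_num) (by norm_num)
    (fun u0 u1 u2 hu => by
      have := Gp_le_one (InT_scale hl1 hl2 hu)
      linarith)
    (fun u0 u1 u2 hu => by
      obtain ⟨a1, a2, _⟩ := hull_pos h0 h1 u0 u1 u2 hu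
      exact ⟨a1, a2, x_pos h0 h1 hu⟩)
    (fun x y a1 a2 a3 a4 => by
      have e : (153 / 2 + 9 : ℝ) = 171 / 2 := by norm_num
      rw [e]
      apply cone_P hd a1 a2 a3
      have := mul_le_mul_of_nonneg_left a4 hd
      nlinarith)
    (pw_P hd h0 h1 hdl)

/-- Nonreconstruction when the channel is trivial. -/
theorem gap_zero (hd : 0 ≤ d) : Tendsto (fun n => gwGap 3 d 0 n) atTop (𝓝 0) := by
  have h1 : -(1 / 2) ≤ (0 : ℝ) := by norm_num
  have h2 : (0 : ℝ) ≤ 1 := by norm_num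
  apply gw_gap_tendsto hd h1 h2
  apply tendsto_atTop_of_eventually_const (i₀ := 1)
  intro n hn
  obtain ⟨m, rfl⟩ : ∃ m, n = m + 1 := ⟨n - 1, by omega⟩
  unfold PS.Eg
  have hterm : ∀ s : GWObs 3 (m + 1), Zg d 0 (m + 1) s * sq3 (msgg d 0 (m + 1) s 0) (msgg d 0 (m + 1) s 1)
      (msgg d 0 (m + 1) s 2) = 0 := by
    intro s
    have hL : ∀ i : Fin 3, gwLik 3 d 0 (m + 1) i s
        = poisWeight d s.count * ∏ c : Fin s.count, Zg d 0 m (s.child c) := by
      intro i
      show poisWeight d s.count * ∏ c : Fin s.count, ∑ j : Fin 3, pottsChannel 3 0 i j * gwLik 3 d 0 m j (s.child c) = _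
      congr 1
      apply Finset.prod_congr rfl
      intro c _
      rw [gw_child' hd h1 h2]
      ring
    have hZ : Zg d 0 (m + 1) s = poisWeight d s.count * ∏ c : Fin s.count, Zg d 0 m (s.child c) := by
      have e : Zg d 0 (m + 1) s = (1 / 3) * ∑ i : Fin 3, gwLik 3 d 0 (m + 1) i s := rfl
      rw [e, Fin.sum_univ_three, hL 0, hL 1, hL 2]
      ring
    have hm : ∀ i : Fin 3, msgg d 0 (m + 1) s i = 0 := by
      intro i
      unfold msgg
      split_ifs with h
      · rfl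
      · rw [hL i, ← hZ, div_self h, sub_self]
    rw [hm 0, hm 1, hm 2]
    unfold sq3
    ring
  simp_rw [hterm]
  exact tsum_zero

/-- Nonreconstruction on the Galton-Watson tree with Poisson offspring, up to the Kesten-Stigum
bound, for eigenvalues between `-399 / 1024` and `229 / 512`. -/
theorem nonrec_gw (hd : 0 ≤ d) (h0 : -(399 / 1024) ≤ lam) (h1 : lam ≤ 229 / 512) (hdl : d * lam ^ 2 ≤ 1) :
    Tendsto (fun n => gwGap 3 d lam n) atTop (𝓝 0) := by
  rcases lt_trichotomy lam 0 with h | h | h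
  · exact SP.nonrec_P hd h0 h hdl
  · subst h
    exact gap_zero hd
  · exact nonrec_P hd h h1 hdl

end main

end SF

end Vale.Agent.Lib.P154
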