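import Mathlib.Analysis.Convex.Mul
import Vale.Agent.Lib.P154.ST.Lyap
import Vale.Agent.Lib.P154.SF.Poly

/-!
The potential with mixed exponents: definitions, tensorization, coordinates.
-/

namespace Vale.Agent.Lib.P154

namespace SF

open ST Filter Topology

/-- The symmetric test function with exponents `(4, 4, 1) / 9`. -/
noncomputable def G1 (u0 u1 u2 : ℝ) : ℝ := avg6 (Gk 4 4 1) u0 u1 u2

/-- The symmetric test function with exponents `(5, 2, 2) / 9`. -/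
noncomputable def G2 (u0 u1 u2 : ℝ) : ℝ := avg6 (Gk 5 2 2) u0 u1 u2

/-- The weighted sum of the first two test functions. -/
noncomputable def Hf (u0 u1 u2 : ℝ) : ℝ :=
  (153 / 2) * (1 - G1 u0 u1 u2) + 9 * (1 - G2 u0 u1 u2)

/-- The potential. -/
noncomputable def psiN (u0 u1 u2 : ℝ) : ℝ := Hf u0 u1 u2 - 70 * (1 - Gp u0 u1 u2)

/-- The auxiliary linear combination. -/
noncomputable def WN (u0 u1 u2 : ℝ) : ℝ := 70 * (1 - Gp u0 u1 u2) - (455 / 512) * Hf u0 u1 u2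

section tens

variable {d : ℕ} {lam : ℝ}

theorem En_G1_succ (h1 : -(1 / 2) ≤ lam) (h2 : lam ≤ 1) (n : ℕ) :
    En d lam (n + 1) G1 = (En d lam n (fun u0 u1 u2 => G1 (lam * u0) (lam * u1) (lam * u2))) ^ d := by
  have e1 : En d lam (n + 1) G1 = En d lam (n + 1) (Gk 4 4 1) := En_avg6 _ _
  have e2 : En d lam n (fun u0 u1 u2 => G1 (lam * u0) (lam * u1) (lam * u2))
      = En d lam n (fun u0 u1 u2 => Gk 4 4 1 (lam * u0) (lam * u1) (lam * u2)) :=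
    En_avg6 n (fun u0 u1 u2 => Gk 4 4 1 (lam * u0) (lam * u1) (lam * u2))
  rw [e1, e2]
  exact En_Gk_succ h1 h2 (by norm_num) n

theorem En_G2_succ (h1 : -(1 / 2) ≤ lam) (h2 : lam ≤ 1) (n : ℕ) :
    En d lam (n + 1) G2 = (En d lam n (fun u0 u1 u2 => G2 (lam * u0) (lam * u1) (lam * u2))) ^ d := by
  have e1 : En d lam (n + 1) G2 = En d lam (n + 1) (Gk 5 2 2) := En_avg6 _ _
  have e2 : En d lam n (fun u0 u1 u2 => G2 (lam * u0) (lam * u1) (lam * u2))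
      = En d lam n (fun u0 u1 u2 => Gk 5 2 2 (lam * u0) (lam * u1) (lam * u2)) :=
    En_avg6 n (fun u0 u1 u2 => Gk 5 2 2 (lam * u0) (lam * u1) (lam * u2))
  rw [e1, e2]
  exact En_Gk_succ h1 h2 (by norm_num) n

end tens

/-! ### Homogeneous coordinates -/

/-- The point `u` of the triangle has homogeneous coordinates `y`. -/
structure RepN (u0 u1 u2 y0 y1 y2 : ℝ) : Prop where
  pos : 0 < Sy y0 y1 y2
  e0 : u0 = (3 * y0 ^ 9 - Sy y0 y1 y2) / Sy y0 y1 y2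
  e1 : u1 = (3 * y1 ^ 9 - Sy y0 y1 y2) / Sy y0 y1 y2
  e2 : u2 = (3 * y2 ^ 9 - Sy y0 y1 y2) / Sy y0 y1 y2
  gp : Gp u0 u1 u2 = 3 * e3y y0 y1 y2 / Sy y0 y1 y2
  g1 : G1 u0 u1 u2 = m1y y0 y1 y2 / (2 * Sy y0 y1 y2)
  g2 : G2 u0 u1 u2 = m2y y0 y1 y2 / (2 * Sy y0 y1 y2)

lemma repN_of {u0 u1 u2 κ y0 y1 y2 : ℝ} (h : InT u0 u1 u2) (hκ : 0 < κ)
    (e0 : rt (1 + u0) = κ * y0) (e1 : rt (1 + u1) = κ * y1) (e2 : rt (1 + u2) = κ * y2) :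
    RepN u0 u1 u2 y0 y1 y2 := by
  obtain ⟨hs, h0, h1, h2⟩ := h
  have p0 : 0 ≤ 1 + u0 := by linarith
  have p1 : 0 ≤ 1 + u1 := by linarith
  have p2 : 0 ≤ 1 + u2 := by linarith
  have r0 := rt_pow p0
  have r1 := rt_pow p1
  have r2 := rt_pow p2
  rw [e0] at r0
  rw [e1] at r1
  rw [e2] at r2
  have hK : 0 < κ ^ 9 := by positivity
  have hKS : κ ^ 9 * Sy y0 y1 y2 = 3 := by
    unfold Sy
    have : κ ^ 9 * (y0 ^ 9 + y1 ^ 9 + y2 ^ 9) = (κ * y0) ^ 9 + (κ * y1) ^ 9 + (κ * y2) ^ 9 := by ring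
    rw [this, r0, r1, r2]
    linarith
  have hS : 0 < Sy y0 y1 y2 := by
    by_contra hc
    have hc' : Sy y0 y1 y2 ≤ 0 := not_lt.1 hc
    have := mul_nonpos_of_nonneg_of_nonpos hK.le hc'
    linarith
  have hSne : Sy y0 y1 y2 ≠ 0 := hS.ne'
  have hKe : κ ^ 9 = 3 / Sy y0 y1 y2 := by
    rw [eq_div_iff hSne]; exact hKS
  have eu : ∀ u y : ℝ, (κ * y) ^ 9 = 1 + u → u = (3 * y ^ 9 - Sy y0 y1 y2) / Sy y0 y1 y2 := by
    intro u y hu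
    have : u = κ ^ 9 * y ^ 9 - 1 := by
      have e : (κ * y) ^ 9 = κ ^ 9 * y ^ 9 := by ring
      rw [e] at hu
      linarith
    rw [this, hKe]
    field_simp
  have eGp : Gp u0 u1 u2 = κ ^ 9 * e3y y0 y1 y2 := by
    unfold Gp Gk mon e3y
    rw [e0, e1, e2]
    ring
  have eG1 : G1 u0 u1 u2 = κ ^ 9 * (m1y y0 y1 y2 / 6) := by
    unfold G1 avg6 Gk mon m1y
    rw [e0, e1, e2]
    ring
  have eG2 : G2 u0 u1 u2 = κ ^ 9 * (m2y y0 y1 y2 / 6) := by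
    unfold G2 avg6 Gk mon m2y
    rw [e0, e1, e2]
    ring
  refine ⟨hS, eu _ _ r0, eu _ _ r1, eu _ _ r2, ?_, ?_, ?_⟩
  · rw [eGp, hKe]
    field_simp
  · rw [eG1, hKe]
    field_simp
    ring
  · rw [eG2, hKe]
    field_simp
    ring

lemma RepN.sq {u0 u1 u2 y0 y1 y2 : ℝ} (R : RepN u0 u1 u2 y0 y1 y2) :
    sq3 u0 u1 u2 = Nxy y0 y1 y2 / (Sy y0 y1 y2) ^ 2 := by
  have hS := R.pos.ne'
  unfold sq3 Nxy
  rw [R.e0, R.e1, R.e2]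
  field_simp

lemma RepN.hp {u0 u1 u2 y0 y1 y2 : ℝ} (R : RepN u0 u1 u2 y0 y1 y2) :
    1 - Gp u0 u1 u2 = Hpn y0 y1 y2 / Sy y0 y1 y2 := by
  have hS := R.pos.ne'
  rw [R.gp]
  unfold Hpn
  field_simp

lemma RepN.hf {u0 u1 u2 y0 y1 y2 : ℝ} (R : RepN u0 u1 u2 y0 y1 y2) :
    Hf u0 u1 u2 = Hny y0 y1 y2 / Sy y0 y1 y2 := by
  have hS := R.pos.ne'
  unfold Hf Hny
  rw [R.g1, R.g2]
  field_simp

lemma RepN.psi {u0 u1 u2 y0 y1 y2 : ℝ} (R : RepN u0 u1 u2 y0 y1 y2) :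
    psiN u0 u1 u2 = Lpn y0 y1 y2 / Sy y0 y1 y2 := by
  have hS := R.pos.ne'
  unfold psiN Lpn
  rw [R.hp, R.hf]
  field_simp

lemma RepN.w {u0 u1 u2 y0 y1 y2 : ℝ} (R : RepN u0 u1 u2 y0 y1 y2) :
    WN u0 u1 u2 = Wnn y0 y1 y2 / Sy y0 y1 y2 := by
  have hS := R.pos.ne'
  unfold WN Wnn
  rw [R.hp, R.hf]
  field_simp

/-- The polynomial form of the inequality at the top level gives the inequality on the triangle. -/
lemma top_of_rep {u0 u1 u2 y0 y1 y2 : ℝ} (R : RepN u0 u1 u2 y0 y1 y2) (hneg : u2 < 0) {Q : ℝ → ℝ → ℝ → ℝ}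
    (H : (Nxy y0 y1 y2) ^ 2 * Q ((3 * y0 ^ 9 - Sy y0 y1 y2) / (Sy y0 y1 y2 - 3 * y2 ^ 9))
        ((Sy y0 y1 y2 - 3 * y2 ^ 9) / Sy y0 y1 y2) (Nxy y0 y1 y2 / (Sy y0 y1 y2) ^ 2)
      ≤ (Sy y0 y1 y2 * Lpn y0 y1 y2 - Nxy y0 y1 y2) * (Sy y0 y1 y2) ^ 2) :
    (sq3 u0 u1 u2) ^ 2 * Q (u0 / (-u2)) (-u2) (sq3 u0 u1 u2) ≤ psiN u0 u1 u2 - sq3 u0 u1 u2 := by
  have hS := R.pos
  have hSne := hS.ne'
  set S := Sy y0 y1 y2 with hSd
  have e2 : -u2 = (S - 3 * y2 ^ 9) / S := by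
    rw [R.e2]; ring
  have hpt : S - 3 * y2 ^ 9 ≠ 0 := by
    intro h0
    rw [h0] at e2
    simp at e2
    linarith
  have e0 : u0 / (-u2) = (3 * y0 ^ 9 - S) / (S - 3 * y2 ^ 9) := by
    have e00 : u0 = (3 * y0 ^ 9 - S) / S := R.e0
    rw [e2, e00]
    field_simp
  rw [e0, e2, R.psi, R.sq]
  have hS4 : 0 < S ^ 4 := by positivity
  have e3 : Lpn y0 y1 y2 / S - Nxy y0 y1 y2 / S ^ 2
      = ((S * Lpn y0 y1 y2 - Nxy y0 y1 y2) * S ^ 2) / S ^ 4 := by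
    field_simp
  have e4 : ∀ A : ℝ, (Nxy y0 y1 y2 / S ^ 2) ^ 2 * A = ((Nxy y0 y1 y2) ^ 2 * A) / S ^ 4 := by
    intro A
    field_simp
  rw [e3, e4]
  exact div_le_div_of_nonneg_right H hS4.le

/-- The polynomial forms of the upper bounds give the upper bounds on the triangle. -/
lemma up_of_rep {u0 u1 u2 y0 y1 y2 : ℝ} (R : RepN u0 u1 u2 y0 y1 y2) (hneg : u2 < 0) {A B : ℝ → ℝ → ℝ}
    (HA : (Sy y0 y1 y2 * Lpn y0 y1 y2 - Nxy y0 y1 y2) * (Sy y0 y1 y2) ^ 2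
      ≤ (Nxy y0 y1 y2) ^ 2 * A ((3 * y0 ^ 9 - Sy y0 y1 y2) / (Sy y0 y1 y2 - 3 * y2 ^ 9))
        ((Sy y0 y1 y2 - 3 * y2 ^ 9) / Sy y0 y1 y2))
    (HB : Wnn y0 y1 y2 * Sy y0 y1 y2 ≤ Nxy y0 y1 y2 * B ((3 * y0 ^ 9 - Sy y0 y1 y2) / (Sy y0 y1 y2 - 3 * y2 ^ 9))
        ((Sy y0 y1 y2 - 3 * y2 ^ 9) / Sy y0 y1 y2)) :
    psiN u0 u1 u2 - sq3 u0 u1 u2 ≤ (sq3 u0 u1 u2) ^ 2 * A (u0 / (-u2)) (-u2) ∧
      WN u0 u1 u2 ≤ sq3 u0 u1 u2 * B (u0 / (-u2)) (-u2) := by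
  have hS := R.pos
  have hSne := hS.ne'
  set S := Sy y0 y1 y2 with hSd
  have e2 : -u2 = (S - 3 * y2 ^ 9) / S := by
    rw [R.e2]; ring
  have hpt : S - 3 * y2 ^ 9 ≠ 0 := by
    intro h0
    rw [h0] at e2
    simp at e2
    linarith
  have e0 : u0 / (-u2) = (3 * y0 ^ 9 - S) / (S - 3 * y2 ^ 9) := by
    have e00 : u0 = (3 * y0 ^ 9 - S) / S := R.e0
    rw [e2, e00]
    field_simp
  rw [e0, e2, R.psi, R.sq, R.w]
  have hS4 : 0 < S ^ 4 := by positivity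
  have hS2 : 0 < S ^ 2 := by positivity
  refine ⟨?_, ?_⟩
  · have e3 : Lpn y0 y1 y2 / S - Nxy y0 y1 y2 / S ^ 2
        = ((S * Lpn y0 y1 y2 - Nxy y0 y1 y2) * S ^ 2) / S ^ 4 := by
      field_simp
    have e4 : ∀ A' : ℝ, (Nxy y0 y1 y2 / S ^ 2) ^ 2 * A' = ((Nxy y0 y1 y2) ^ 2 * A') / S ^ 4 := by
      intro A'
      field_simp
    rw [e3, e4]
    exact div_le_div_of_nonneg_right HA hS4.le
  · have e3 : Wnn y0 y1 y2 / S = (Wnn y0 y1 y2 * S) / S ^ 2 := by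
      field_simp
    have e4 : ∀ B' : ℝ, Nxy y0 y1 y2 / S ^ 2 * B' = (Nxy y0 y1 y2 * B') / S ^ 2 := by
      intro B'
      field_simp
    rw [e3, e4]
    exact div_le_div_of_nonneg_right HB hS2.le

/-! ### Sorted points of the triangle -/

lemma rt_mono {x y : ℝ} (hx : 0 ≤ x) (h : x ≤ y) : rt x ≤ rt y :=
  Real.rpow_le_rpow hx h (by norm_num)

lemma rt_lt {x y : ℝ} (hx : 0 ≤ x) (h : x < y) : rt x < rt y :=
  Real.rpow_lt_rpow hx h (by norm_num)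

/-- The data of a sorted point of the triangle. -/
structure Srt (u0 u1 u2 r0 r1 r2 : ℝ) : Prop where
  t : InT u0 u1 u2
  e0 : rt (1 + u0) = r0
  e1 : rt (1 + u1) = r1
  e2 : rt (1 + u2) = r2
  p0 : r0 ^ 9 = 1 + u0
  p1 : r1 ^ 9 = 1 + u1
  p2 : r2 ^ 9 = 1 + u2
  n2 : 0 ≤ r2
  o12 : r2 ≤ r1
  o01 : r1 ≤ r0
  s02 : r2 < r0

lemma srt_of {u0 u1 u2 : ℝ} (hT : InT u0 u1 u2) (h01 : u1 ≤ u0) (h12 : u2 ≤ u1) (hneg : u2 < 0) :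
    Srt u0 u1 u2 (rt (1 + u0)) (rt (1 + u1)) (rt (1 + u2)) := by
  have hT' := hT
  obtain ⟨hs, h0, h1, h2⟩ := hT'
  have p2 : 0 ≤ 1 + u2 := by linarith
  have p1 : 0 ≤ 1 + u1 := by linarith
  have p0 : 0 ≤ 1 + u0 := by linarith
  refine ⟨hT, rfl, rfl, rfl, rt_pow p0, rt_pow p1, rt_pow p2, rt_nonneg p2,
    rt_mono p2 (by linarith), rt_mono p1 (by linarith), rt_lt p2 (by linarith)⟩

/-- Center coordinates of a sorted point. -/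
lemma center_rep {u0 u1 u2 r0 r1 r2 : ℝ} (H : Srt u0 u1 u2 r0 r1 r2) :
    ∃ τ a : ℝ, 0 < τ ∧ 1 / 2 ≤ a ∧ a ≤ 2 ∧ τ * (r0 + r1 + r2) = r0 + r1 - 2 * r2 ∧
      RepN u0 u1 u2 (1 + τ * a) (1 + τ * (1 - a)) (1 - τ) := by
  obtain ⟨hT, e0, e1, e2, p0, p1, p2, n2, o12, o01, s02⟩ := H
  have hσ : 0 < r0 + r1 + r2 := by linarith
  have hd : 0 < r0 + r1 - 2 * r2 := by linarith
  have hσn := hσ.ne'
  have hdn := hd.ne'
  refine ⟨(r0 + r1 - 2 * r2) / (r0 + r1 + r2), (2 * r0 - r1 - r2) / (r0 + r1 - 2 * r2),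
    div_pos hd hσ, ?_, ?_, ?_, ?_⟩
  · rw [le_div_iff₀ hd]; linarith
  · rw [div_le_iff₀ hd]; linarith
  · field_simp
  · have e : ((r0 + r1 - 2 * r2) / (r0 + r1 + r2)) * ((2 * r0 - r1 - r2) / (r0 + r1 - 2 * r2))
        = (2 * r0 - r1 - r2) / (r0 + r1 + r2) := by
      field_simp
    have e' : ((r0 + r1 - 2 * r2) / (r0 + r1 + r2)) * (1 - (2 * r0 - r1 - r2) / (r0 + r1 - 2 * r2))
        = ((r0 + r1 - 2 * r2) - (2 * r0 - r1 - r2)) / (r0 + r1 + r2) := by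
      rw [mul_sub, e, mul_one]
      ring
    apply repN_of hT (κ := (r0 + r1 + r2) / 3) (by positivity)
    · rw [e0, e]; field_simp; ring
    · rw [e1, e']; field_simp; ring
    · rw [e2]; field_simp; ring

/-- Far coordinates of a sorted point. -/
lemma far_rep {u0 u1 u2 r0 r1 r2 : ℝ} (H : Srt u0 u1 u2 r0 r1 r2) :
    RepN u0 u1 u2 1 (r1 / r0) (r2 / r0) := by
  obtain ⟨hT, e0, e1, e2, p0, p1, p2, n2, o12, o01, s02⟩ := H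
  have hr : 0 < r0 := by linarith
  apply repN_of hT (κ := r0) hr
  · rw [e0]; ring
  · rw [e1]; field_simp
  · rw [e2]; field_simp

/-- A symmetric statement holds on the triangle as soon as it holds at sorted points. -/
lemma sym_reduce {P : ℝ → ℝ → ℝ → Prop} (s01 : ∀ a b c, P a b c → P b a c) (s12 : ∀ a b c, P a b c → P a c b)
    (hP : ∀ a b c, InT a b c → b ≤ a → c ≤ b → P a b c) :
    ∀ a b c, InT a b c → P a b c := by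
  intro a b c h
  obtain ⟨hs, h0, h1, h2⟩ := h
  have T : ∀ x y z, x + y + z = 0 → -1 ≤ x → -1 ≤ y → -1 ≤ z → InT x y z := fun x y z h a b c => ⟨h, a, b, c⟩
  rcases le_total b a with hab | hab <;> rcases le_total c b with hbc | hbc <;> rcases le_total c a with hac | hac
  · exact hP a b c (T _ _ _ hs h0 h1 h2) hab hbc
  · exact hP a b c (T _ _ _ hs h0 h1 h2) hab hbc
  · exact s12 _ _ _ (hP a c b (T _ _ _ (by linarith) h0 h2 h1) hac hbc)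
  · exact s12 _ _ _ (s01 _ _ _ (hP c a b (T _ _ _ (by linarith) h2 h0 h1) hac hab))
  · exact s01 _ _ _ (hP b a c (T _ _ _ (by linarith) h1 h0 h2) hab hac)
  · exact s01 _ _ _ (s12 _ _ _ (hP b c a (T _ _ _ (by linarith) h1 h2 h0) hbc hac))
  · exact s01 _ _ _ (s12 _ _ _ (s01 _ _ _ (hP c b a (T _ _ _ (by linarith) h2 h1 h0) hbc hab)))
  · exact s01 _ _ _ (s12 _ _ _ (s01 _ _ _ (hP c b a (T _ _ _ (by linarith) h2 h1 h0) hbc hab)))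

lemma zero_of_sorted {a b c : ℝ} (h : InT a b c) (h1 : b ≤ a) (h2 : c ≤ b) (h3 : ¬ c < 0) :
    a = 0 ∧ b = 0 ∧ c = 0 := by
  have h3' : 0 ≤ c := not_lt.1 h3
  have hs := h.1
  refine ⟨by linarith, by linarith, by linarith⟩

/-! ### Symmetries -/

lemma Gp_swap01 (u0 u1 u2 : ℝ) : Gp u1 u0 u2 = Gp u0 u1 u2 := by
  unfold Gp Gk mon; ring

lemma Gp_swap12 (u0 u1 u2 : ℝ) : Gp u0 u2 u1 = Gp u0 u1 u2 := by
  unfold Gp Gk mon; ring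

lemma Hf_swap01 (u0 u1 u2 : ℝ) : Hf u1 u0 u2 = Hf u0 u1 u2 := by
  unfold Hf G1 G2 avg6; ring

lemma Hf_swap12 (u0 u1 u2 : ℝ) : Hf u0 u2 u1 = Hf u0 u1 u2 := by
  unfold Hf G1 G2 avg6; ring

lemma psiN_swap01 (u0 u1 u2 : ℝ) : psiN u1 u0 u2 = psiN u0 u1 u2 := by
  unfold psiN; rw [Hf_swap01, Gp_swap01]

lemma psiN_swap12 (u0 u1 u2 : ℝ) : psiN u0 u2 u1 = psiN u0 u1 u2 := by
  unfold psiN; rw [Hf_swap12, Gp_swap12]

lemma WN_swap01 (u0 u1 u2 : ℝ) : WN u1 u0 u2 = WN u0 u1 u2 := by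
  unfold WN; rw [Hf_swap01, Gp_swap01]

lemma WN_swap12 (u0 u1 u2 : ℝ) : WN u0 u2 u1 = WN u0 u1 u2 := by
  unfold WN; rw [Hf_swap12, Gp_swap12]

lemma sq3_swap01 (u0 u1 u2 : ℝ) : sq3 u1 u0 u2 = sq3 u0 u1 u2 := by
  unfold sq3; ring

lemma sq3_swap12 (u0 u1 u2 : ℝ) : sq3 u0 u2 u1 = sq3 u0 u1 u2 := by
  unfold sq3; ring

lemma sq3_nonneg' (u0 u1 u2 : ℝ) : 0 ≤ sq3 u0 u1 u2 := by
  unfold sq3
  nlinarith [mul_self_nonneg u0, mul_self_nonneg u1, mul_self_nonneg u2]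

lemma sq3_le_six {u0 u1 u2 : ℝ} (h : InT u0 u1 u2) : sq3 u0 u1 u2 ≤ 6 := by
  obtain ⟨hs, h0, h1, h2⟩ := h
  unfold sq3
  have a0 : 0 ≤ (u0 + 1) * (2 - u0) := mul_nonneg (by linarith) (by linarith)
  have a1 : 0 ≤ (u1 + 1) * (2 - u1) := mul_nonneg (by linarith) (by linarith)
  have a2 : 0 ≤ (u2 + 1) * (2 - u2) := mul_nonneg (by linarith) (by linarith)
  nlinarith

lemma values_zero : Gp 0 0 0 = 1 ∧ Hf 0 0 0 = 0 := by
  have e1 : rt (1 + 0) = 1 := by rw [add_zero, rt_one]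
  have eq1 : G1 0 0 0 = 1 := by
    unfold G1 avg6 Gk mon
    rw [e1]
    norm_num
  have eq2 : G2 0 0 0 = 1 := by
    unfold G2 avg6 Gk mon
    rw [e1]
    norm_num
  have ep : Gp 0 0 0 = 1 := by
    unfold Gp Gk mon
    rw [e1]
    norm_num
  refine ⟨ep, ?_⟩
  unfold Hf
  rw [eq1, eq2]
  norm_num

/-! ### Mixtures and powers -/

lemma pow_mix {a b p q : ℝ} (ha : 0 ≤ a) (hb : 0 ≤ b) (hp : 0 ≤ p) (hq : 0 ≤ q) (hpq : p + q = 1) (d : ℕ) :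
    (p * a + q * b) ^ d ≤ p * a ^ d + q * b ^ d := by
  have := (convexOn_pow d).2 ha hb hp hq hpq
  simpa using this

end SF

end Vale.Agent.Lib.P154
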