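import Vale.Agent.Lib.P154.SF.Final

/-!
The series defining the reconstruction quantity on the Galton-Watson tree converges.
-/

namespace Vale.Agent.Lib.P154

namespace PS

variable {d lam : ℝ}

theorem gwGap_summable (hd : 0 ≤ d) (h1 : -(1 / 2) ≤ lam) (h2 : lam ≤ 1) (n : ℕ) :
    Summable (fun s : GWObs 3 n => gwProb 3 d lam n s *
      ((1 / 2) * ∑ i : Fin 3, |gwPosterior 3 d lam n s i - 1 / ((3 : ℕ) : ℝ)|)) := by
  have hterm : ∀ s : GWObs 3 n, gwProb 3 d lam n s *
      ((1 / 2) * ∑ i : Fin 3, |gwPosterior 3 d lam n s i - 1 / ((3 : ℕ) : ℝ)|)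
      = Zg d lam n s * ((1 / 6) * (|msgg d lam n s 0| + |msgg d lam n s 1| + |msgg d lam n s 2|)) := by
    intro s
    rw [gwProb_eq]
    by_cases hz : Zg d lam n s = 0
    · rw [hz]; simp
    · rw [Fin.sum_univ_three, gwPosterior_eq n s 0 hz, gwPosterior_eq n s 1 hz, gwPosterior_eq n s 2 hz]
      simp only [abs_div]
      norm_num
      left
      ring
  have hA : BddT (fun u0 u1 u2 => (1 / 6) * (|u0| + |u1| + |u2|)) := by
    refine ⟨1, fun a b c h => ?_⟩
    obtain ⟨hs, h0, h1, h2⟩ := h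
    have e0 : |a| ≤ 2 := abs_le.2 ⟨by linarith, by linarith⟩
    have e1 : |b| ≤ 2 := abs_le.2 ⟨by linarith, by linarith⟩
    have e2 : |c| ≤ 2 := abs_le.2 ⟨by linarith, by linarith⟩
    rw [abs_of_nonneg (by positivity)]
    linarith
  have := summ hd h1 h2 n hA
  refine this.congr ?_
  intro s
  exact (hterm s).symm

end PS

end Vale.Agent.Lib.P154
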